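import Vale.Agent.Lib.P372.Steering2

namespace Vale.Agent.Lib.P372

open Matrix
open scoped MatrixOrder ComplexOrder Kronecker

/-- block diagonal matrix with blocks labelled by the first index -/
def blockD {L X : Type} [DecidableEq L] (D : L → Matrix X X ℂ) : Matrix (L × X) (L × X) ℂ :=
  fun x y => if x.1 = y.1 then D x.1 x.2 y.2 else 0

theorem blockD_conjTranspose {L X : Type} [DecidableEq L] (D : L → Matrix X X ℂ) :
    (blockD D)ᴴ = blockD (fun l => (D l)ᴴ) := by
  ext x y
  simp only [blockD, conjTranspose_apply]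
  by_cases h : x.1 = y.1
  · simp [h]
  · have h' : ¬ y.1 = x.1 := fun e => h e.symm
    simp [h, h']

theorem blockD_mulVec {L X : Type} [DecidableEq L] [Fintype L] [Fintype X]
    (D : L → Matrix X X ℂ) (v : L × X → ℂ) (l : L) (x : X) :
    (blockD D *ᵥ v) (l, x) = (D l *ᵥ fun y => v (l, y)) x := by
  simp only [mulVec, dotProduct, blockD, Fintype.sum_prod_type]
  rw [Finset.sum_eq_single l]
  · simp
  · intro b _ hb
    have : ¬ l = b := fun e => hb e.symm
    simp [this]
  · simp

theorem blockD_contraction {L X : Type} [DecidableEq L] [Fintype L] [Fintype X] [DecidableEq X]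
    (D : L → Matrix X X ℂ)
    (hD : ∀ l (v : EuclideanSpace ℂ X), ‖toEuclideanLin (D l) v‖ ≤ ‖v‖)
    (v : EuclideanSpace ℂ (L × X)) : ‖toEuclideanLin (blockD D) v‖ ≤ ‖v‖ := by
  have key : ‖toEuclideanLin (blockD D) v‖ ^ 2 ≤ ‖v‖ ^ 2 := by
    rw [EuclideanSpace.norm_sq_eq, EuclideanSpace.norm_sq_eq, Fintype.sum_prod_type,
      Fintype.sum_prod_type]
    apply Finset.sum_le_sum
    intro l _
    have h1 := hD l (WithLp.toLp 2 fun y => v.ofLp (l, y))
    have h2 : ‖toEuclideanLin (D l) (WithLp.toLp 2 fun y => v.ofLp (l, y))‖ ^ 2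
        ≤ ‖(WithLp.toLp 2 fun y => v.ofLp (l, y) : EuclideanSpace ℂ X)‖ ^ 2 := by gcongr
    rw [EuclideanSpace.norm_sq_eq, EuclideanSpace.norm_sq_eq] at h2
    refine le_trans (le_of_eq ?_) h2
    refine Finset.sum_congr rfl fun x _ => ?_
    rw [toLpLin_apply, toLpLin_apply]
    simp only [blockD_mulVec]
  exact (sq_le_sq₀ (norm_nonneg _) (norm_nonneg _)).1 key

theorem trace_blockD_mul {L X : Type} [DecidableEq L] [Fintype L] [Fintype X]
    (D : L → Matrix X X ℂ) (M : Matrix (L × X) (L × X) ℂ) :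
    trace (blockD D * M) = ∑ l, trace (D l * M.submatrix (Prod.mk l) (Prod.mk l)) := by
  simp only [trace, diag_apply, mul_apply, Fintype.sum_prod_type, blockD, submatrix_apply]
  refine Finset.sum_congr rfl fun l _ => ?_
  refine Finset.sum_congr rfl fun x _ => ?_
  rw [Finset.sum_eq_single l]
  · simp
  · intro b _ hb
    have : ¬ l = b := fun e => hb e.symm
    simp [this]
  · simp

end Vale.Agent.Lib.P372
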