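import Mathlib

/-!
# P372: definitions for one-way secret-key distillation (finite-dimensional matrix formalism)

All systems are finite index types; an operator on the system with index type `I` is a
`Matrix I I ℂ`; a bipartite system has index type `A × B`.
-/

namespace Vale.Agent.Lib.P372

open Matrix
open scoped MatrixOrder ComplexOrder Kronecker

/-- A state (density operator): positive semidefinite with trace one. -/
def IsState {I : Type} [Fintype I] (ρ : Matrix I I ℂ) : Prop :=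
  ρ.PosSemidef ∧ ρ.trace = 1

/-- Separable: a finite convex combination of product states. -/
def IsSeparable {A B : Type} [Fintype A] [Fintype B] (ρ : Matrix (A × B) (A × B) ℂ) : Prop :=
  ∃ (N : ℕ) (p : Fin N → ℝ) (α : Fin N → Matrix A A ℂ) (β : Fin N → Matrix B B ℂ),
    (∀ i, 0 ≤ p i) ∧ (∑ i, p i = 1) ∧ (∀ i, IsState (α i)) ∧ (∀ i, IsState (β i)) ∧
    ρ = ∑ i, (p i : ℂ) • (α i ⊗ₖ β i)

/-- The vector `ψ` on `A ⊗ B ⊗ E` is a purification of `ρ`: `ρ = Tr_E |ψ⟩⟨ψ|`. -/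
def IsPurification {A B E : Type} [Fintype E] (ψ : A × B × E → ℂ)
    (ρ : Matrix (A × B) (A × B) ℂ) : Prop :=
  ∀ a b a' b', ρ (a, b) (a', b') = ∑ e, ψ (a, b, e) * star (ψ (a', b', e))

/-- `ρ` on `A ⊗ B` has a symmetric extension: a positive semidefinite `S` on `A ⊗ B ⊗ B`
both of whose `A ⊗ B` marginals (tracing out the last, resp. the middle factor) equal `ρ`. -/
def HasSymmExt {A B : Type} [Fintype B] (ρ : Matrix (A × B) (A × B) ℂ) : Prop :=
  ∃ S : Matrix (A × B × B) (A × B × B) ℂ, S.PosSemidef ∧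
    (∀ a b a' b', ∑ c, S (a, b, c) (a', b', c) = ρ (a, b) (a', b')) ∧
    (∀ a c a' c', ∑ b, S (a, b, c) (a', b, c') = ρ (a, c) (a', c'))

/-- A POVM on the system `I` with outcome set `O`. -/
def IsPOVM {I O : Type} [Fintype I] [DecidableEq I] [Fintype O] (P : O → Matrix I I ℂ) : Prop :=
  (∀ o, (P o).PosSemidef) ∧ ∑ o, P o = 1

/-- Amplitudes of `ψ^{⊗ n}`, regrouped as a vector on `A^n ⊗ B^n ⊗ E^n`. -/
def tensorPow {A B E : Type} (n : ℕ) (ψ : A × B × E → ℂ)
    (a : Fin n → A) (b : Fin n → B) (e : Fin n → E) : ℂ :=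
  ∏ i, ψ (a i, b i, e i)

/-- Final state `τ_{K_A K_B M E}` of a one-way protocol run on the pure state `Ψ` of `XA ⊗ XB ⊗ XE`:
Alice measures the POVM `PA` with outcome `(k, m)`, keeps `k` and publicly announces `m`;
Bob, knowing `m`, measures the POVM `PB m` with outcome `k'`.  The block with classical labels
`(k, k', m)` is Eve's unnormalised conditional state
`Tr_{AB} [(PA (k,m) ⊗ PB m k' ⊗ 1) |Ψ⟩⟨Ψ|]`. -/
def ccqState {XA XB XE K M : Type} [Fintype XA] [Fintype XB] [DecidableEq K] [DecidableEq M]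
    (Ψ : XA → XB → XE → ℂ) (PA : K × M → Matrix XA XA ℂ) (PB : M → K → Matrix XB XB ℂ) :
    Matrix (K × K × M × XE) (K × K × M × XE) ℂ :=
  fun x y =>
    if x.1 = y.1 ∧ x.2.1 = y.2.1 ∧ x.2.2.1 = y.2.2.1 then
      ∑ a, ∑ a', ∑ b, ∑ b', PA (x.1, x.2.2.1) a' a * PB x.2.2.1 x.2.1 b' b *
        (Ψ a b x.2.2.2 * star (Ψ a' b' y.2.2.2))
    else 0

/-- The ideal key state `|K|⁻¹ ∑_z |z,z⟩⟨z,z| ⊗ σ`. -/
noncomputable def idealKey {K X : Type} [Fintype K] [DecidableEq K] (σ : Matrix X X ℂ) :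
    Matrix (K × K × X) (K × K × X) ℂ :=
  fun x y =>
    if x.1 = x.2.1 ∧ x.1 = y.1 ∧ x.2.1 = y.2.1 then ((Fintype.card K : ℂ))⁻¹ * σ x.2.2 y.2.2
    else 0

/-- The trace norm `‖X‖₁ = tr √(X* X)`. -/
noncomputable def traceNorm {I : Type} [Fintype I] [DecidableEq I] (X : Matrix I I ℂ) : ℝ :=
  (Matrix.trace (CFC.sqrt (Xᴴ * X))).re

end Vale.Agent.Lib.P372
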