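import Vale.Agent.Lib.P372.Defs

namespace Vale.Agent.Lib.P372

open Matrix
open scoped MatrixOrder ComplexOrder Kronecker

/-- unnormalised W vector -/
def wVec : Bool × Bool × Bool → ℂ := fun x =>
  if x = (true, false, false) ∨ x = (false, true, false) ∨ x = (false, false, true) then 1 else 0

/-- the two-qubit marginal of the W state -/
noncomputable def rhoW : Matrix (Bool × Bool) (Bool × Bool) ℂ :=
  fun x y => (1 / 3 : ℂ) * ∑ e, wVec (x.1, x.2, e) * wVec (y.1, y.2, e)

theorem star_wVec (x : Bool × Bool × Bool) : star (wVec x) = wVec x := by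
  unfold wVec
  split_ifs <;> simp

theorem rhoW_posSemidef : rhoW.PosSemidef := by
  have e : rhoW = (1 / 3 : ℝ) • ∑ e : Bool,
      vecMulVec (fun x : Bool × Bool => wVec (x.1, x.2, e))
        (star fun x : Bool × Bool => wVec (x.1, x.2, e)) := by
    ext x y
    simp [rhoW, vecMulVec_apply, star_wVec]
    ring
  rw [e]
  refine PosSemidef.smul ?_ (by norm_num)
  exact posSemidef_sum _ fun e _ => posSemidef_vecMulVec_self_star _

theorem rhoW_trace : rhoW.trace = 1 := by
  simp [trace, rhoW, Fintype.sum_prod_type, wVec]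
  norm_num

theorem rhoW_isState : IsState rhoW := ⟨rhoW_posSemidef, rhoW_trace⟩

theorem rhoW_swap (a b a' b' : Bool) : rhoW (a, b) (a', b') = rhoW (b, a) (b', a') := by
  cases a <;> cases b <;> cases a' <;> cases b' <;> simp [rhoW, wVec]

theorem rhoW_hasSymmExt : HasSymmExt rhoW := by
  refine ⟨(1 / 3 : ℝ) • vecMulVec wVec (star wVec), ?_, ?_, ?_⟩
  · exact PosSemidef.smul (posSemidef_vecMulVec_self_star _) (by norm_num)
  · intro a b a' b'
    simp [rhoW, vecMulVec_apply, star_wVec]
    ring
  · intro a c a' c'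
    cases a <;> cases c <;> cases a' <;> cases c' <;>
      simp [rhoW, vecMulVec_apply, wVec]

/-- The PPT criterion: the transpose on the second factor of a separable operator is positive
semidefinite. -/
theorem IsSeparable.ppt {A B : Type} [Fintype A] [Fintype B] {ρ : Matrix (A × B) (A × B) ℂ}
    (h : IsSeparable ρ) :
    (Matrix.of fun x y : A × B => ρ (x.1, y.2) (y.1, x.2)).PosSemidef := by
  obtain ⟨N, p, α, β, hp, -, hα, hβ, rfl⟩ := h
  have e : (Matrix.of fun x y : A × B =>
      (∑ i, (p i : ℂ) • (α i ⊗ₖ β i)) (x.1, y.2) (y.1, x.2))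
      = ∑ i, (p i) • (α i ⊗ₖ (β i)ᵀ) := by
    ext x y
    simp [Matrix.sum_apply, kroneckerMap_apply]
  rw [e]
  exact posSemidef_sum _ fun i _ =>
    PosSemidef.smul ((hα i).1.kronecker (hβ i).1.transpose) (hp i)

theorem rhoW_not_separable : ¬ IsSeparable rhoW := by
  intro h
  have h1 := h.ppt.dotProduct_mulVec_nonneg
    (fun x : Bool × Bool => if x = (false, false) then 1 else if x = (true, true) then -1 else 0)
  simp [dotProduct, mulVec, Fintype.sum_prod_type, rhoW, wVec] at h1
  norm_num at h1
  have h2 := (Complex.le_def.1 h1).1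
  norm_num at h2

end Vale.Agent.Lib.P372
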