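import Vale.Agent.Lib.P372.SingleShot

namespace Vale.Agent.Lib.P372

open Matrix
open scoped MatrixOrder ComplexOrder Kronecker

section main

variable {XA XB XE K M J : Type} [Fintype XA] [DecidableEq XA] [Fintype XB] [DecidableEq XB]
  [Fintype XE] [DecidableEq XE] [Fintype K] [DecidableEq K] [Fintype M] [DecidableEq M]
  [Fintype J] [DecidableEq J]

/-- Eve's conditional operator -/
def omega (Ψ : XA → XB → XE → ℂ) (P : Matrix XA XA ℂ) (Q : Matrix XB XB ℂ) : Matrix XE XE ℂ :=
  fun e e' => ∑ a, ∑ a', ∑ b, ∑ b', P a' a * Q b' b * (Ψ a b e * star (Ψ a' b' e'))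

def Ymat (Ψ : XA → XB → XE → ℂ) : Matrix (XA × XB) XE ℂ := fun x e => Ψ x.1 x.2 e

omit [DecidableEq XA] [DecidableEq XB] [Fintype XE] [DecidableEq XE] in
theorem omega_eq (Ψ : XA → XB → XE → ℂ) (P : Matrix XA XA ℂ) (Q : Matrix XB XB ℂ) :
    omega Ψ P Q = ((Ymat Ψ)ᴴ * (P ⊗ₖ Q) * Ymat Ψ)ᵀ := by
  ext e e'
  simp only [omega, Ymat, transpose_apply, mul_apply, conjTranspose_apply, kroneckerMap_apply,
    Fintype.sum_prod_type, Finset.sum_mul]
  refine Finset.sum_congr rfl fun a _ => ?_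
  rw [Finset.sum_comm]
  refine Finset.sum_congr rfl fun b _ => Finset.sum_congr rfl fun a' _ =>
    Finset.sum_congr rfl fun b' _ => ?_
  ring

omit [DecidableEq XA] [DecidableEq XB] [DecidableEq XE] in
theorem trace_mul_omega (Ψ : XA → XB → XE → ℂ) (P : Matrix XA XA ℂ) (Q : Matrix XB XB ℂ)
    (T : Matrix XE XE ℂ) :
    trace (T * omega Ψ P Q) = trace ((P ⊗ₖ Q) * (Ymat Ψ * Tᵀ * (Ymat Ψ)ᴴ)) := by
  rw [omega_eq, ← trace_transpose, transpose_mul, transpose_transpose]
  rw [Matrix.mul_assoc, Matrix.mul_assoc, Matrix.trace_mul_comm]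
  simp only [Matrix.mul_assoc]

omit [DecidableEq XA] [DecidableEq XB] in
theorem trace_omega (Ψ : XA → XB → XE → ℂ) (P : Matrix XA XA ℂ) (Q : Matrix XB XB ℂ) :
    trace (omega Ψ P Q) = trace ((P ⊗ₖ Q) * (Ymat Ψ * (Ymat Ψ)ᴴ)) := by
  have := trace_mul_omega Ψ P Q 1
  simpa using this

omit [DecidableEq XA] [DecidableEq XB] [Fintype XE] [DecidableEq XE] [Fintype K] [Fintype M] in
theorem ccqState_sub (Ψ : XA → XB → XE → ℂ) (PA : K × M → Matrix XA XA ℂ)
    (PB : M → K → Matrix XB XB ℂ) (k k' : K) (m : M) :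
    (((ccqState Ψ PA PB).submatrix (Prod.mk k) (Prod.mk k)).submatrix
      (Prod.mk k') (Prod.mk k')).submatrix (Prod.mk m) (Prod.mk m)
      = omega Ψ (PA (k, m)) (PB m k') := by
  ext e e'
  simp [ccqState, omega]

omit [Fintype XE] [DecidableEq XE] [Fintype M] [DecidableEq M] in
theorem idealKey_sub (σ : Matrix (M × XE) (M × XE) ℂ) (k k' : K) (m : M) :
    (((idealKey (K := K) σ).submatrix (Prod.mk k) (Prod.mk k)).submatrix
      (Prod.mk k') (Prod.mk k')).submatrix (Prod.mk m) (Prod.mk m)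
      = if k = k' then ((Fintype.card K : ℂ))⁻¹ • σ.submatrix (Prod.mk m) (Prod.mk m) else 0 := by
  ext e e'
  by_cases h : k = k'
  · simp [idealKey, h]
  · simp [idealKey, h]

theorem single_shot [Nonempty K] (Ψ : XA → XB → XE → ℂ) (Z : Matrix (XA × XB) (XB × J) ℂ)
    (H1 : ∀ x x' : XA × XB, ∑ q, Z x q * star (Z x' q) = ∑ e, Ψ x.1 x.2 e * star (Ψ x'.1 x'.2 e))
    (H2 : ∀ a c a' c', ∑ b, ∑ j, Z (a, b) (c, j) * star (Z (a', b) (c', j))
      = ∑ e, Ψ a c e * star (Ψ a' c' e))
    (PA : K × M → Matrix XA XA ℂ) (PB : M → K → Matrix XB XB ℂ)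
    (hPB : ∀ m, IsPOVM (PB m))
    (σ : Matrix (M × XE) (M × XE) ℂ) (hσ : IsState σ) :
    1 - ((Fintype.card K : ℝ))⁻¹ ≤ traceNorm (ccqState Ψ PA PB - idealKey σ) := by
  set Y := Ymat Ψ with hY
  have hYZ : Y * Yᴴ = Z * Zᴴ := by
    ext x x'
    simp only [mul_apply, conjTranspose_apply, hY, Ymat]
    exact (H1 x x').symm
  have H2' : ∀ a c a' c', ∑ b, ∑ j, Z (a, b) (c, j) * star (Z (a', b) (c', j))
      = (Y * Yᴴ) (a, c) (a', c') := by
    intro a c a' c'
    rw [H2]
    simp [mul_apply, conjTranspose_apply, hY, Ymat]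
  obtain ⟨Φ, hΦpos, hΦsum, hΦone, hΦ⟩ := exists_steering Y Z hYZ
  set T : M → K → Matrix XE XE ℂ := fun m k => Φ (PB m k) with hT
  have hTpos : ∀ m k, (T m k).PosSemidef := fun m k => hΦpos _ ((hPB m).1 k)
  have hTsum : ∀ m, ∑ k, T m k = Φ 1 := by
    intro m
    rw [← (hPB m).2, hΦsum]
  have hT1 : ∀ m k, (1 - T m k).PosSemidef := by
    intro m k
    have e : 1 - T m k = (1 - Φ 1) + ∑ k' ∈ Finset.univ.erase k, T m k' := by
      rw [← hTsum m, ← Finset.add_sum_erase Finset.univ (T m) (Finset.mem_univ k)]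
      abel
    rw [e]
    exact hΦone.add (posSemidef_sum _ fun k' _ => hTpos m k')
  set D : K → K → M → Matrix XE XE ℂ := fun k k' m => T m k - (if k = k' then 1 else 0) with hD
  have hDH : ∀ k k' m, (D k k' m)ᴴ = D k k' m := by
    intro k k' m
    simp only [hD, conjTranspose_sub, (hTpos m k).1.eq]
    by_cases h : k = k' <;> simp [h]
  have hDc : ∀ k k' m (v : EuclideanSpace ℂ XE), ‖toEuclideanLin (D k k' m) v‖ ≤ ‖v‖ := by
    intro k k' m v
    by_cases h : k = k'
    · have e : D k k' m = -(1 - T m k) := by simp [hD, h]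
      rw [e, map_neg, LinearMap.neg_apply, norm_neg]
      exact contraction_of_posSemidef _ (hT1 m k) (by simpa using hTpos m k) v
    · have e : D k k' m = T m k := by simp [hD, h]
      rw [e]
      exact contraction_of_posSemidef _ (hTpos m k) (hT1 m k) v
  set 𝒞 : Matrix (K × K × M × XE) (K × K × M × XE) ℂ :=
    blockD (fun k => blockD (fun k' => blockD (fun m => D k k' m))) with h𝒞
  have h𝒞H : 𝒞ᴴ = 𝒞 := by
    simp only [h𝒞, blockD_conjTranspose, hDH]
  have h𝒞c : ∀ v : EuclideanSpace ℂ (K × K × M × XE), ‖toEuclideanLin 𝒞ᴴ v‖ ≤ ‖v‖ := by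
    rw [h𝒞H]
    exact blockD_contraction _ fun k => blockD_contraction _ fun k' =>
      blockD_contraction _ fun m => hDc k k' m
  have hmain := re_trace_mul_le_traceNorm 𝒞 (ccqState Ψ PA PB - idealKey σ) h𝒞c
  refine le_trans ?_ hmain
  rw [Matrix.mul_sub, trace_sub, Complex.sub_re]
  -- the real protocol: Eve guesses as well as Bob
  have hτ : trace (𝒞 * ccqState Ψ PA PB) = 0 := by
    simp only [h𝒞, trace_blockD_mul, ccqState_sub]
    have step : ∀ k, ∑ k', ∑ m, trace (D k k' m * omega Ψ (PA (k, m)) (PB m k')) = 0 := by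
      intro k
      rw [Finset.sum_comm]
      refine Finset.sum_eq_zero fun m _ => ?_
      have e1 : ∀ k', trace (D k k' m * omega Ψ (PA (k, m)) (PB m k'))
          = trace (T m k * omega Ψ (PA (k, m)) (PB m k'))
            - (if k = k' then trace (omega Ψ (PA (k, m)) (PB m k')) else 0) := by
        intro k'
        by_cases h : k = k' <;> simp [hD, h, Matrix.sub_mul]
      simp only [e1, Finset.sum_sub_distrib, Finset.sum_ite_eq, Finset.mem_univ, if_true]
      rw [sub_eq_zero, trace_omega]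
      simp only [trace_mul_omega]
      rw [← trace_sum, ← Finset.sum_mul]
      have e2 : ∑ k', (PA (k, m) ⊗ₖ PB m k') = PA (k, m) ⊗ₖ (1 : Matrix XB XB ℂ) := by
        rw [← (hPB m).2]
        ext x y
        simp [Matrix.sum_apply, kroneckerMap_apply, Finset.mul_sum]
      rw [e2, hΦ]
      exact swap_trace _ _ _ _ H2'
    exact Finset.sum_eq_zero fun k _ => step k
  -- the ideal state: Eve's guess is independent of the key
  have hcard : (Fintype.card K : ℂ) ≠ 0 := by
    exact_mod_cast Fintype.card_ne_zero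
  have hideal : trace (𝒞 * idealKey σ)
      = ((Fintype.card K : ℂ))⁻¹ * ∑ m, trace (Φ 1 * σ.submatrix (Prod.mk m) (Prod.mk m)) - 1 := by
    simp only [h𝒞, trace_blockD_mul, idealKey_sub]
    have e1 : ∀ k k' m, trace (D k k' m * (if k = k' then
        ((Fintype.card K : ℂ))⁻¹ • σ.submatrix (Prod.mk m) (Prod.mk m) else 0))
        = if k = k' then ((Fintype.card K : ℂ))⁻¹ *
            (trace (T m k * σ.submatrix (Prod.mk m) (Prod.mk m))
              - trace (σ.submatrix (Prod.mk m) (Prod.mk m))) else 0 := by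
      intro k k' m
      by_cases h : k = k'
      · simp [hD, h, Matrix.sub_mul, trace_smul]
      · simp [h]
    simp only [e1]
    have e2 : ∀ k, ∑ k', ∑ m, (if k = k' then ((Fintype.card K : ℂ))⁻¹ *
            (trace (T m k * σ.submatrix (Prod.mk m) (Prod.mk m))
              - trace (σ.submatrix (Prod.mk m) (Prod.mk m))) else 0)
        = ∑ m, ((Fintype.card K : ℂ))⁻¹ *
            (trace (T m k * σ.submatrix (Prod.mk m) (Prod.mk m))
              - trace (σ.submatrix (Prod.mk m) (Prod.mk m))) := by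
      intro k
      rw [Finset.sum_comm]
      refine Finset.sum_congr rfl fun m _ => ?_
      simp
    simp only [e2]
    rw [Finset.sum_comm]
    have htr : ∑ m, trace (σ.submatrix (Prod.mk m) (Prod.mk m)) = 1 := by
      rw [← hσ.2]
      simp [trace, Fintype.sum_prod_type]
    have e3 : ∀ m, ∑ k, ((Fintype.card K : ℂ))⁻¹ *
            (trace (T m k * σ.submatrix (Prod.mk m) (Prod.mk m))
              - trace (σ.submatrix (Prod.mk m) (Prod.mk m)))
        = ((Fintype.card K : ℂ))⁻¹ * trace (Φ 1 * σ.submatrix (Prod.mk m) (Prod.mk m))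
          - trace (σ.submatrix (Prod.mk m) (Prod.mk m)) := by
      intro m
      rw [← Finset.mul_sum, Finset.sum_sub_distrib, ← trace_sum, ← Finset.sum_mul, hTsum]
      simp only [Finset.sum_const, Finset.card_univ, nsmul_eq_mul]
      field_simp
    simp only [e3, Finset.sum_sub_distrib, htr, Finset.mul_sum]
  have hle : (∑ m, trace (Φ 1 * σ.submatrix (Prod.mk m) (Prod.mk m))).re ≤ 1 := by
    have htr : ∑ m, trace (σ.submatrix (Prod.mk m) (Prod.mk m)) = 1 := by
      rw [← hσ.2]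
      simp [trace, Fintype.sum_prod_type]
    have h1 : 0 ≤ ∑ m, trace ((1 - Φ 1) * σ.submatrix (Prod.mk m) (Prod.mk m)) :=
      Finset.sum_nonneg fun m _ =>
        trace_mul_nonneg_of_posSemidef hΦone (hσ.1.submatrix (Prod.mk m))
    simp only [Matrix.sub_mul, Matrix.one_mul, trace_sub, Finset.sum_sub_distrib, htr] at h1
    have h2 := (Complex.le_def.1 h1).1
    simp only [Complex.zero_re, Complex.sub_re, Complex.one_re] at h2
    linarith
  rw [hτ, hideal]
  have hc : ((Fintype.card K : ℂ))⁻¹ = (((Fintype.card K : ℝ))⁻¹ : ℝ) := by push_cast; rfl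
  rw [hc]
  simp only [Complex.zero_re, Complex.sub_re, Complex.one_re, Complex.re_ofReal_mul]
  have hpos : (0 : ℝ) ≤ ((Fintype.card K : ℝ))⁻¹ := by positivity
  nlinarith

end main

end Vale.Agent.Lib.P372
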