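import Vale.Agent.Lib.P372.Main

namespace Vale.Agent.Lib.P372

open Matrix
open scoped MatrixOrder ComplexOrder Kronecker

theorem sum_pi_prod {T : Type} [Fintype T] (n : ℕ) (g : Fin n → T → ℂ) :
    ∑ f : Fin n → T, ∏ i, g i (f i) = ∏ i, ∑ t, g i t := by
  rw [Finset.prod_univ_sum]
  simp [Fintype.piFinset_univ]

theorem one_way_bound {A B E : Type} [Fintype A] [DecidableEq A] [Fintype B] [DecidableEq B]
    [Fintype E] [DecidableEq E] (ρ : Matrix (A × B) (A × B) ℂ) (ψ : A × B × E → ℂ)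
    (hψ : IsPurification ψ ρ) (hρ : HasSymmExt ρ)
    (n : ℕ) {K M : Type} [Fintype K] [DecidableEq K] [Nonempty K] [Fintype M] [DecidableEq M]
    (PA : K × M → Matrix (Fin n → A) (Fin n → A) ℂ)
    (PB : M → K → Matrix (Fin n → B) (Fin n → B) ℂ)
    (hPB : ∀ m, IsPOVM (PB m))
    (σ : Matrix (M × (Fin n → E)) (M × (Fin n → E)) ℂ) (hσ : IsState σ) :
    1 - ((Fintype.card K : ℝ))⁻¹ ≤ traceNorm (ccqState (tensorPow n ψ) PA PB - idealKey σ) := by
  obtain ⟨S, hS, hS1, hS2⟩ := hρ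
  obtain ⟨Bm, hBm⟩ := CStarAlgebra.nonneg_iff_eq_star_mul_self.mp hS.nonneg
  have hSe : ∀ x y, S x y = ∑ j, star (Bm j x) * star (star (Bm j y)) := by
    intro x y
    rw [hBm]
    simp [mul_apply, star_eq_conjTranspose, conjTranspose_apply]
  set Z1 : A × B → B × (A × B × B) → ℂ := fun x q => star (Bm q.2 (x.1, x.2, q.1)) with hZ1
  set Zn : Matrix ((Fin n → A) × (Fin n → B)) ((Fin n → B) × (Fin n → A × B × B)) ℂ :=
    fun x q => ∏ i, Z1 (x.1 i, x.2 i) (q.1 i, q.2 i) with hZn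
  have hΨ : ∀ (a : Fin n → A) (b : Fin n → B) (a' : Fin n → A) (b' : Fin n → B),
      ∑ e, tensorPow n ψ a b e * star (tensorPow n ψ a' b' e) = ∏ i, ρ (a i, b i) (a' i, b' i) := by
    intro a b a' b'
    simp only [tensorPow, star_prod, ← Finset.prod_mul_distrib]
    rw [sum_pi_prod n (fun i e => ψ (a i, b i, e) * star (ψ (a' i, b' i, e)))]
    refine Finset.prod_congr rfl fun i _ => ?_
    rw [hψ]
  refine single_shot (tensorPow n ψ) Zn ?_ ?_ PA PB hPB σ hσ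
  · intro x x'
    rw [hΨ, Fintype.sum_prod_type]
    simp only [hZn, star_prod, ← Finset.prod_mul_distrib]
    have e1 : ∀ c : Fin n → B, ∑ j : Fin n → A × B × B,
        ∏ i, Z1 (x.1 i, x.2 i) (c i, j i) * star (Z1 (x'.1 i, x'.2 i) (c i, j i))
        = ∏ i, ∑ j, Z1 (x.1 i, x.2 i) (c i, j) * star (Z1 (x'.1 i, x'.2 i) (c i, j)) := by
      intro c
      rw [sum_pi_prod n (fun i j => Z1 (x.1 i, x.2 i) (c i, j) * star (Z1 (x'.1 i, x'.2 i) (c i, j)))]
    simp only [e1]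
    rw [sum_pi_prod n (fun i c => ∑ j, Z1 (x.1 i, x.2 i) (c, j) * star (Z1 (x'.1 i, x'.2 i) (c, j)))]
    refine Finset.prod_congr rfl fun i _ => ?_
    rw [← hS1]
    refine Finset.sum_congr rfl fun c _ => ?_
    rw [hSe]
  · intro a c a' c'
    rw [hΨ]
    simp only [hZn, star_prod, ← Finset.prod_mul_distrib]
    have e1 : ∀ b : Fin n → B, ∑ j : Fin n → A × B × B,
        ∏ i, Z1 (a i, b i) (c i, j i) * star (Z1 (a' i, b i) (c' i, j i))
        = ∏ i, ∑ j, Z1 (a i, b i) (c i, j) * star (Z1 (a' i, b i) (c' i, j)) := by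
      intro b
      rw [sum_pi_prod n (fun i j => Z1 (a i, b i) (c i, j) * star (Z1 (a' i, b i) (c' i, j)))]
    simp only [e1]
    rw [sum_pi_prod n (fun i b => ∑ j, Z1 (a i, b) (c i, j) * star (Z1 (a' i, b) (c' i, j)))]
    refine Finset.prod_congr rfl fun i _ => ?_
    rw [← hS2]
    refine Finset.sum_congr rfl fun b _ => ?_
    rw [hSe]

end Vale.Agent.Lib.P372
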