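import Vale.Agent.Lib.P372.Block

namespace Vale.Agent.Lib.P372

open Matrix
open scoped MatrixOrder ComplexOrder Kronecker

theorem trace_mul_nonneg_of_posSemidef {I : Type} [Fintype I] [DecidableEq I]
    {A B : Matrix I I ℂ} (hA : A.PosSemidef) (hB : B.PosSemidef) : 0 ≤ trace (A * B) := by
  obtain ⟨C, rfl⟩ := CStarAlgebra.nonneg_iff_eq_star_mul_self.mp hB.nonneg
  rw [star_eq_conjTranspose, ← Matrix.mul_assoc, Matrix.trace_mul_comm, ← Matrix.mul_assoc]
  exact (hA.mul_mul_conjTranspose_same C).trace_nonneg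

section swap

variable {XA XB J : Type} [Fintype XA] [DecidableEq XA] [Fintype XB] [DecidableEq XB]
  [Fintype J] [DecidableEq J]

theorem steer_entry (N : Matrix XB XB ℂ) (Z : Matrix (XA × XB) (XB × J) ℂ) (x x' : XA × XB) :
    (Z * (N ⊗ₖ (1 : Matrix J J ℂ))ᵀ * Zᴴ) x x'
      = ∑ c, ∑ c', N c' c * ∑ j, Z x (c, j) * star (Z x' (c', j)) := by
  simp only [mul_apply, transpose_apply, kroneckerMap_apply, conjTranspose_apply,
    Fintype.sum_prod_type, one_apply]
  -- LHS : ∑ c', ∑ j', (∑ c, ∑ j, Z x (c,j) * (N c' c * if j' = j then 1 else 0)) * star (Z x' (c',j'))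
  rw [Finset.sum_comm]
  calc ∑ j', ∑ c', (∑ c, ∑ j, Z x (c, j) * (N c' c * if j' = j then 1 else 0)) * star (Z x' (c', j'))
      = ∑ j', ∑ c', ∑ c, N c' c * (Z x (c, j') * star (Z x' (c', j'))) := by
        refine Finset.sum_congr rfl fun j' _ => Finset.sum_congr rfl fun c' _ => ?_
        rw [Finset.sum_mul]
        refine Finset.sum_congr rfl fun c _ => ?_
        rw [Finset.sum_eq_single j']
        · simp; ring
        · intro b _ hb
          have : ¬ j' = b := fun e => hb e.symm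
          simp [this]
        · simp
    _ = ∑ c, ∑ c', N c' c * ∑ j, Z x (c, j) * star (Z x' (c', j)) := by
        simp only [Finset.mul_sum]
        rw [Finset.sum_comm]
        calc ∑ c', ∑ j', ∑ c, N c' c * (Z x (c, j') * star (Z x' (c', j')))
            = ∑ c', ∑ c, ∑ j', N c' c * (Z x (c, j') * star (Z x' (c', j'))) := by
              refine Finset.sum_congr rfl fun c' _ => ?_
              rw [Finset.sum_comm]
          _ = _ := by rw [Finset.sum_comm]

theorem trace_kron_one_mul (P : Matrix XA XA ℂ) (Q : Matrix (XA × XB) (XA × XB) ℂ) :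
    trace ((P ⊗ₖ (1 : Matrix XB XB ℂ)) * Q) = ∑ a', ∑ a, P a' a * ∑ b, Q (a, b) (a', b) := by
  simp only [trace, diag_apply, mul_apply, kroneckerMap_apply, Fintype.sum_prod_type, one_apply]
  refine Finset.sum_congr rfl fun a' _ => ?_
  rw [Finset.sum_comm]
  refine Finset.sum_congr rfl fun a _ => ?_
  rw [Finset.mul_sum]
  refine Finset.sum_congr rfl fun b _ => ?_
  rw [Finset.sum_eq_single b]
  · simp
  · intro b' _ hb
    have : ¬ b = b' := fun e => hb e.symm
    simp [this]
  · simp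

theorem trace_kron_mul (P : Matrix XA XA ℂ) (N : Matrix XB XB ℂ)
    (R : Matrix (XA × XB) (XA × XB) ℂ) :
    trace ((P ⊗ₖ N) * R) = ∑ a', ∑ a, P a' a * ∑ c, ∑ c', N c' c * R (a, c) (a', c') := by
  simp only [trace, diag_apply, mul_apply, kroneckerMap_apply, Fintype.sum_prod_type]
  refine Finset.sum_congr rfl fun a' _ => ?_
  rw [Finset.sum_comm]
  refine Finset.sum_congr rfl fun a _ => ?_
  rw [Finset.mul_sum, Finset.sum_comm]
  refine Finset.sum_congr rfl fun c _ => ?_
  rw [Finset.mul_sum]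
  refine Finset.sum_congr rfl fun c' _ => ?_
  ring

theorem swap_trace (P : Matrix XA XA ℂ) (N : Matrix XB XB ℂ) (Z : Matrix (XA × XB) (XB × J) ℂ)
    (R : Matrix (XA × XB) (XA × XB) ℂ)
    (H2 : ∀ a c a' c', ∑ b, ∑ j, Z (a, b) (c, j) * star (Z (a', b) (c', j)) = R (a, c) (a', c')) :
    trace ((P ⊗ₖ (1 : Matrix XB XB ℂ)) * (Z * (N ⊗ₖ (1 : Matrix J J ℂ))ᵀ * Zᴴ))
      = trace ((P ⊗ₖ N) * R) := by
  rw [trace_kron_one_mul, trace_kron_mul]
  refine Finset.sum_congr rfl fun a' _ => Finset.sum_congr rfl fun a _ => ?_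
  congr 1
  simp only [steer_entry]
  rw [Finset.sum_comm]
  refine Finset.sum_congr rfl fun c _ => ?_
  rw [Finset.sum_comm]
  refine Finset.sum_congr rfl fun c' _ => ?_
  rw [← Finset.mul_sum, H2]

end swap

end Vale.Agent.Lib.P372
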