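import Vale.Agent.Lib.P372.TraceNorm

namespace Vale.Agent.Lib.P372

open Matrix
open scoped MatrixOrder ComplexOrder Kronecker

/-- norm squared of `Yᴴ u` in terms of `Y Yᴴ`. -/
theorem norm_sq_conjTranspose_apply {X E : Type} [Fintype X] [DecidableEq X] [Fintype E]
    [DecidableEq E] (Y : Matrix X E ℂ) (u : EuclideanSpace ℂ X) :
    ((‖toEuclideanLin Yᴴ u‖ ^ 2 : ℝ) : ℂ) = inner ℂ u (toEuclideanLin (Y * Yᴴ) u) := by
  rw [toEuclideanLin_mul]
  have : toEuclideanLin Y = LinearMap.adjoint (toEuclideanLin Yᴴ) := by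
    rw [← Matrix.toEuclideanLin_conjTranspose_eq_adjoint, conjTranspose_conjTranspose]
  rw [this, LinearMap.adjoint_inner_right, inner_self_eq_norm_sq_to_K]
  push_cast
  rfl

/-- Two purifications of the same operator are related by a contraction on the purifying system. -/
theorem exists_contraction_of_mul_conjTranspose_eq {X E F : Type} [Fintype X] [DecidableEq X]
    [Fintype E] [DecidableEq E] [Fintype F] [DecidableEq F]
    (Y : Matrix X E ℂ) (Z : Matrix X F ℂ) (h : Y * Yᴴ = Z * Zᴴ) :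
    ∃ W : Matrix E F ℂ, Y * W = Z ∧ (1 - W * Wᴴ).PosSemidef := by
  set y := toEuclideanLin Yᴴ with hy
  set z := toEuclideanLin Zᴴ with hz
  have hnorm : ∀ u, ‖y u‖ = ‖z u‖ := by
    intro u
    have h1 := norm_sq_conjTranspose_apply Y u
    have h2 := norm_sq_conjTranspose_apply Z u
    rw [h, ← h2] at h1
    have h3 : ‖y u‖ ^ 2 = ‖z u‖ ^ 2 := by exact_mod_cast h1
    exact (sq_eq_sq₀ (norm_nonneg _) (norm_nonneg _)).1 h3
  set K := LinearMap.range y with hK
  obtain ⟨g, hg⟩ := LinearMap.exists_rightInverse_of_surjective y.rangeRestrict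
    (LinearMap.range_rangeRestrict y)
  have hg' : ∀ w : K, y (g w) = w := by
    intro w
    have := congrArg (fun f => (f w : EuclideanSpace ℂ E)) hg
    simpa using this
  set C : EuclideanSpace ℂ E →ₗ[ℂ] EuclideanSpace ℂ F :=
    z ∘ₗ g ∘ₗ (K.orthogonalProjectionOnto : EuclideanSpace ℂ E →L[ℂ] K).toLinearMap with hC
  have hCy : ∀ u, C (y u) = z u := by
    intro u
    have hmem : y u ∈ K := LinearMap.mem_range_self y u
    have hp : K.orthogonalProjectionOnto (y u) = ⟨y u, hmem⟩ :=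
      Submodule.orthogonalProjectionOnto_mem_subspace_eq_self (⟨y u, hmem⟩ : K)
    have h1 : C (y u) = z (g ⟨y u, hmem⟩) := by
      simp [hC, hp]
    rw [h1]
    have h2 : y (g ⟨y u, hmem⟩ - u) = 0 := by
      rw [map_sub, hg']
      simp
    have h3 : ‖z (g ⟨y u, hmem⟩ - u)‖ = 0 := by rw [← hnorm, h2, norm_zero]
    have h4 : z (g ⟨y u, hmem⟩ - u) = 0 := norm_eq_zero.1 h3
    rw [map_sub, sub_eq_zero] at h4
    exact h4
  have hCn : ∀ v, ‖C v‖ ≤ ‖v‖ := by
    intro v
    have h1 : C v = z (g (K.orthogonalProjectionOnto v)) := by simp [hC]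
    rw [h1, ← hnorm, hg']
    exact Submodule.norm_orthogonalProjectionOnto_apply_le K v
  set Cm : Matrix F E ℂ := toEuclideanLin.symm C with hCm
  have hCm' : toEuclideanLin Cm = C := by simp [hCm]
  refine ⟨Cmᴴ, ?_, ?_⟩
  · have h1 : Cm * Yᴴ = Zᴴ := by
      apply toEuclideanLin.injective
      apply LinearMap.ext
      intro u
      rw [toEuclideanLin_mul, hCm']
      exact hCy u
    have h2 := congrArg conjTranspose h1
    simpa using h2
  · rw [conjTranspose_conjTranspose]
    refine PosSemidef.of_dotProduct_mulVec_nonneg ?_ ?_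
    · simp [IsHermitian, conjTranspose_sub, conjTranspose_mul]
    · intro x
      set v : EuclideanSpace ℂ E := WithLp.toLp 2 x with hv
      have h1 : star x ⬝ᵥ ((1 - Cmᴴ * Cm) *ᵥ x)
          = ((‖v‖ ^ 2 - ‖C v‖ ^ 2 : ℝ) : ℂ) := by
        have e1 := norm_sq_conjTranspose_apply Cmᴴ v
        rw [conjTranspose_conjTranspose, hCm'] at e1
        have e2 : inner ℂ v (toEuclideanLin (Cmᴴ * Cm) v) = star x ⬝ᵥ ((Cmᴴ * Cm) *ᵥ x) := by
          rw [toLpLin_apply, EuclideanSpace.inner_eq_star_dotProduct]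
          simp [hv, dotProduct_comm]
        have e3 : ((‖v‖ ^ 2 : ℝ) : ℂ) = star x ⬝ᵥ x := by
          have := inner_self_eq_norm_sq_to_K (𝕜 := ℂ) v
          rw [EuclideanSpace.inner_eq_star_dotProduct] at this
          push_cast
          refine this.symm.trans ?_
          simp [hv, dotProduct_comm]
        rw [sub_mulVec, one_mulVec, dotProduct_sub, ← e2, ← e1, ← e3]
        push_cast
        ring
      rw [h1]
      have h2 : 0 ≤ ‖v‖ ^ 2 - ‖C v‖ ^ 2 := by
        have := hCn v
        have h3 : ‖C v‖ ^ 2 ≤ ‖v‖ ^ 2 := by gcongr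
        linarith
      exact_mod_cast h2

end Vale.Agent.Lib.P372
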