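import Vale.Agent.Lib.P372.Steering

namespace Vale.Agent.Lib.P372

open Matrix
open scoped MatrixOrder ComplexOrder Kronecker

theorem dotProduct_one_sub_mulVec {E F : Type} [Fintype E] [DecidableEq E] [Fintype F]
    [DecidableEq F] (C : Matrix F E ℂ) (x : E → ℂ) :
    star x ⬝ᵥ ((1 - Cᴴ * C) *ᵥ x)
      = ((‖(WithLp.toLp 2 x : EuclideanSpace ℂ E)‖ ^ 2
          - ‖toEuclideanLin C (WithLp.toLp 2 x : EuclideanSpace ℂ E)‖ ^ 2 : ℝ) : ℂ) := by
  set v : EuclideanSpace ℂ E := WithLp.toLp 2 x with hv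
  have e1 := norm_sq_conjTranspose_apply Cᴴ v
  rw [conjTranspose_conjTranspose] at e1
  have e2 : inner ℂ v (toEuclideanLin (Cᴴ * C) v) = star x ⬝ᵥ ((Cᴴ * C) *ᵥ x) := by
    rw [toLpLin_apply, EuclideanSpace.inner_eq_star_dotProduct]
    simp [hv, dotProduct_comm]
  have e3 : ((‖v‖ ^ 2 : ℝ) : ℂ) = star x ⬝ᵥ x := by
    have := inner_self_eq_norm_sq_to_K (𝕜 := ℂ) v
    rw [EuclideanSpace.inner_eq_star_dotProduct] at this
    push_cast
    refine this.symm.trans ?_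
    simp [hv, dotProduct_comm]
  rw [sub_mulVec, one_mulVec, dotProduct_sub, ← e2, ← e1, ← e3]
  push_cast
  ring

theorem norm_le_of_posSemidef_one_sub {E F : Type} [Fintype E] [DecidableEq E] [Fintype F]
    [DecidableEq F] (C : Matrix F E ℂ) (h : (1 - Cᴴ * C).PosSemidef) (v : EuclideanSpace ℂ E) :
    ‖toEuclideanLin C v‖ ≤ ‖v‖ := by
  have h1 := h.dotProduct_mulVec_nonneg v.ofLp
  rw [dotProduct_one_sub_mulVec] at h1
  have h2 : (0 : ℝ) ≤ ‖v‖ ^ 2 - ‖toEuclideanLin C v‖ ^ 2 := by exact_mod_cast h1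
  have h3 : ‖toEuclideanLin C v‖ ^ 2 ≤ ‖v‖ ^ 2 := by linarith
  exact (sq_le_sq₀ (norm_nonneg _) (norm_nonneg _)).1 h3

/-- `0 ≤ A ≤ 1` implies that `A` is a contraction. -/
theorem contraction_of_posSemidef {E : Type} [Fintype E] [DecidableEq E] (A : Matrix E E ℂ)
    (h0 : A.PosSemidef) (h1 : (1 - A).PosSemidef) (v : EuclideanSpace ℂ E) :
    ‖toEuclideanLin A v‖ ≤ ‖v‖ := by
  apply norm_le_of_posSemidef_one_sub
  have hA : Aᴴ = A := h0.1
  have hB : (1 - A)ᴴ = 1 - A := h1.1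
  have e : 1 - Aᴴ * A = (1 - A) + (Aᴴ * (1 - A) * A + (1 - A)ᴴ * A * (1 - A)) := by
    rw [hB, hA]
    noncomm_ring
  rw [e]
  exact h1.add ((h1.conjTranspose_mul_mul_same A).add (h0.conjTranspose_mul_mul_same (1 - A)))

theorem sum_kronecker_one {B J ι : Type} [DecidableEq J] (s : Finset ι) (N : ι → Matrix B B ℂ) :
    (∑ i ∈ s, N i) ⊗ₖ (1 : Matrix J J ℂ) = ∑ i ∈ s, (N i ⊗ₖ (1 : Matrix J J ℂ)) := by
  ext x y
  simp [Matrix.sum_apply, Finset.sum_mul, kroneckerMap_apply]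

/-- Steering: if `Y` and `Z` purify the same operator, every measurement on the first factor of the
purifying system of `Z` can be simulated on the purifying system of `Y`. -/
theorem exists_steering {X E B J : Type} [Fintype X] [DecidableEq X] [Fintype E] [DecidableEq E]
    [Fintype B] [DecidableEq B] [Fintype J] [DecidableEq J]
    (Y : Matrix X E ℂ) (Z : Matrix X (B × J) ℂ) (h : Y * Yᴴ = Z * Zᴴ) :
    ∃ Φ : Matrix B B ℂ → Matrix E E ℂ,
      (∀ N, N.PosSemidef → (Φ N).PosSemidef) ∧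
      (∀ (ι : Type) (s : Finset ι) (N : ι → Matrix B B ℂ), Φ (∑ i ∈ s, N i) = ∑ i ∈ s, Φ (N i)) ∧
      (1 - Φ 1).PosSemidef ∧
      (∀ N, Y * (Φ N)ᵀ * Yᴴ = Z * (N ⊗ₖ (1 : Matrix J J ℂ))ᵀ * Zᴴ) := by
  obtain ⟨W, hW, hW1⟩ := exists_contraction_of_mul_conjTranspose_eq Y Z h
  refine ⟨fun N => (W * (N ⊗ₖ (1 : Matrix J J ℂ))ᵀ * Wᴴ)ᵀ, ?_, ?_, ?_, ?_⟩
  · intro N hN
    exact ((hN.kronecker PosSemidef.one).transpose.mul_mul_conjTranspose_same W).transpose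
  · intro ι s N
    simp only [sum_kronecker_one, transpose_sum, Matrix.mul_sum, Matrix.sum_mul]
  · have : (1 : Matrix E E ℂ) - (W * ((1 : Matrix B B ℂ) ⊗ₖ (1 : Matrix J J ℂ))ᵀ * Wᴴ)ᵀ
        = (1 - W * Wᴴ)ᵀ := by
      simp [transpose_sub]
    rw [this]
    exact hW1.transpose
  · intro N
    simp only [transpose_transpose]
    rw [← hW]
    simp only [conjTranspose_mul, Matrix.mul_assoc]

end Vale.Agent.Lib.P372
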