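import Vale.Agent.Lib.P372.Defs

namespace Vale.Agent.Lib.P372

open Matrix
open scoped MatrixOrder ComplexOrder Kronecker

theorem traceNorm_eq {I : Type} [Fintype I] [DecidableEq I] (X : Matrix I I ℂ) :
    traceNorm X = ∑ i, Real.sqrt ((isHermitian_conjTranspose_mul_self X).eigenvalues i) := by
  have hA : (Xᴴ * X).PosSemidef := posSemidef_conjTranspose_mul_self X
  unfold traceNorm
  rw [CFC.sqrt_eq_cfc, cfc_nnreal_eq_real _ (Xᴴ * X), hA.1.cfc_eq]
  simp only [IsHermitian.cfc]
  simp [Matrix.trace_mul_cycle]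
  refine Finset.sum_congr rfl fun i _ => ?_
  rw [max_eq_left (hA.eigenvalues_nonneg i)]

theorem toEuclideanLin_mul {I J L : Type} [Fintype I] [DecidableEq I] [Fintype J] [DecidableEq J]
    [Fintype L] [DecidableEq L] (C : Matrix L J ℂ) (X : Matrix J I ℂ)
    (v : EuclideanSpace ℂ I) :
    toEuclideanLin (C * X) v = toEuclideanLin C (toEuclideanLin X v) := by
  simp [toLpLin_apply, Matrix.mulVec_mulVec]

theorem re_trace_mul_le_traceNorm {I : Type} [Fintype I] [DecidableEq I] (C X : Matrix I I ℂ)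
    (hC : ∀ v : EuclideanSpace ℂ I, ‖toEuclideanLin Cᴴ v‖ ≤ ‖v‖) :
    (trace (C * X)).re ≤ traceNorm X := by
  rw [traceNorm_eq]
  set hH := isHermitian_conjTranspose_mul_self X
  have h1 : trace (C * X) = ∑ i, inner ℂ (hH.eigenvectorBasis i)
      (toEuclideanLin (C * X) (hH.eigenvectorBasis i)) := by
    rw [← LinearMap.trace_eq_sum_inner, toEuclideanLin_eq_toLin_orthonormal, Matrix.trace_toLin_eq]
  rw [h1, Complex.re_sum]
  apply Finset.sum_le_sum
  intro i _
  set v := hH.eigenvectorBasis i with hv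
  have h2 : inner ℂ v (toEuclideanLin (C * X) v)
      = inner ℂ (toEuclideanLin Cᴴ v) (toEuclideanLin X v) := by
    rw [toEuclideanLin_mul, Matrix.toEuclideanLin_conjTranspose_eq_adjoint,
      LinearMap.adjoint_inner_left]
  have h3 : ‖toEuclideanLin X v‖ ^ 2 = hH.eigenvalues i := by
    have e1 : inner ℂ (toEuclideanLin X v) (toEuclideanLin X v)
        = inner ℂ v (toEuclideanLin (Xᴴ * X) v) := by
      rw [toEuclideanLin_mul, Matrix.toEuclideanLin_conjTranspose_eq_adjoint,
        LinearMap.adjoint_inner_right]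
    have e2 : toEuclideanLin (Xᴴ * X) v = (hH.eigenvalues i : ℂ) • v := by
      have := hH.mulVec_eigenvectorBasis i
      rw [toLpLin_apply, this]
      ext j
      simp [hv]
    rw [e2, inner_smul_right, inner_self_eq_norm_sq_to_K, inner_self_eq_norm_sq_to_K] at e1
    have hn : ‖v‖ = 1 := hH.eigenvectorBasis.orthonormal.1 i
    rw [hn] at e1
    have e3 : ((‖toEuclideanLin X v‖ ^ 2 : ℝ) : ℂ) = ((hH.eigenvalues i : ℝ) : ℂ) := by
      push_cast
      simpa using e1
    exact_mod_cast e3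
  rw [h2]
  calc (inner ℂ (toEuclideanLin Cᴴ v) (toEuclideanLin X v)).re
      ≤ ‖inner ℂ (toEuclideanLin Cᴴ v) (toEuclideanLin X v)‖ := Complex.re_le_norm _
    _ ≤ ‖toEuclideanLin Cᴴ v‖ * ‖toEuclideanLin X v‖ := norm_inner_le_norm _ _
    _ ≤ 1 * ‖toEuclideanLin X v‖ := by
        gcongr
        exact (hC v).trans (le_of_eq (hH.eigenvectorBasis.orthonormal.1 i))
    _ = Real.sqrt (hH.eigenvalues i) := by
        rw [← h3, one_mul, Real.sqrt_sq (norm_nonneg _)]

end Vale.Agent.Lib.P372
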